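import Vale.Agent.P070.Final

/-! A counterexample to Naimark's problem, proved without additional axioms. -/

namespace Vale.Agent.Results.P070.NaimarkZFC

universe u v w

/-- An irreducible representation: nonzero, without proper closed invariant subspace. -/
def IsIrrep {A : Type} [CStarAlgebra A] {H : Type u} [NormedAddCommGroup H]
    [InnerProductSpace ℂ H] [CompleteSpace H] (π : A →⋆ₙₐ[ℂ] (H →L[ℂ] H)) : Prop :=
  π ≠ 0 ∧ ∀ M : Submodule ℂ H, IsClosed (M : Set H) → (∀ a : A, ∀ x ∈ M, π a x ∈ M) →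
    M = ⊥ ∨ M = ⊤

/-- Unitary equivalence of representations. -/
def UnitEquiv {A : Type} [CStarAlgebra A] {H : Type u} [NormedAddCommGroup H]
    [InnerProductSpace ℂ H] [CompleteSpace H] {K : Type v} [NormedAddCommGroup K]
    [InnerProductSpace ℂ K] [CompleteSpace K] (π : A →⋆ₙₐ[ℂ] (H →L[ℂ] H))
    (σ : A →⋆ₙₐ[ℂ] (K →L[ℂ] K)) : Prop :=
  ∃ U : H ≃ₗᵢ[ℂ] K, ∀ (a : A) (x : H), U (π a x) = σ a (U x)

/-- Property (N). -/
def PropN (A : Type) [CStarAlgebra A] : Prop :=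
  Nontrivial A ∧
    ∀ (H : Type u) [NormedAddCommGroup H] [InnerProductSpace ℂ H] [CompleteSpace H]
      (K : Type v) [NormedAddCommGroup K] [InnerProductSpace ℂ K] [CompleteSpace K]
      (π : A →⋆ₙₐ[ℂ] (H →L[ℂ] H)) (σ : A →⋆ₙₐ[ℂ] (K →L[ℂ] K)),
      IsIrrep π → IsIrrep σ → UnitEquiv π σ

/-- `A` is isomorphic to the algebra of compact operators on `H`. -/
def IsoCompacts (A : Type) [CStarAlgebra A] (H : Type w) [NormedAddCommGroup H]
    [InnerProductSpace ℂ H] [CompleteSpace H] : Prop :=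
  ∃ φ : A →⋆ₙₐ[ℂ] (H →L[ℂ] H), Function.Injective φ ∧
    Set.range φ = {T : H →L[ℂ] H | IsCompactOperator T}

theorem result : ∃ (A : Type) (_ : CStarAlgebra A), PropN.{u, v} A ∧
    ∀ (H : Type w) [NormedAddCommGroup H] [InnerProductSpace ℂ H] [CompleteSpace H],
      ¬ IsoCompacts A H := by
  obtain ⟨A, _, hA, ⟨s, hs⟩, h⟩ := Vale.Agent.P070.main.{u, v}
  refine ⟨A, inferInstance, ⟨hA, fun H _ _ _ K _ _ _ π σ hπ hσ => ?_⟩, fun H _ _ _ hφ => ?_⟩
  · obtain ⟨π', h1, h2, h3⟩ := Vale.Agent.P070.exists_unital π hπ.1 hπ.2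
    obtain ⟨σ', h4, h5, h6⟩ := Vale.Agent.P070.exists_unital σ hσ.1 hσ.2
    obtain ⟨U, hU⟩ := h H K π' σ' h2 h5 h3 h6
    exact ⟨U, fun a x => by rw [← h1, ← h4, hU]⟩
  · obtain ⟨φ, h1, h2⟩ := hφ
    exact Vale.Agent.P070.not_compacts hs φ h1 h2

end Vale.Agent.Results.P070.NaimarkZFC
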